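import Vale.Agent.P333.H984.Tf.Str

set_option autoImplicit false

/-!
P333: checks of steps of the greedy algorithm.
-/

namespace Vale.Agent.P333.H984.Tf

open Vale.Agent.P333.H984.Num

theorem ok1 : stepOk s8 s9 473
    [m0, s0, s1, s2, s3, s4, s5, s6, s7, s10, s11, s12, s13, s14, s15, s18] = true := by
  decide +kernel

theorem e1 : mrg s8 s9 473 = m1 := by
  decide +kernel

theorem ok2 : stepOk s15 m0 437
    [m1, s0, s1, s2, s3, s4, s5, s6, s7, s10, s11, s12, s13, s14, s18] = true := by
  decide +kernel

theorem e2 : mrg s15 m0 437 = m2 := by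
  decide +kernel

theorem ok4 : stepOk s14 m2 397
    [m3, m1, s0, s1, s2, s3, s4, s5, s10, s11, s12, s13, s18] = true := by
  decide +kernel

theorem e4 : mrg s14 m2 397 = m4 := by
  decide +kernel

theorem ok6 : stepOk s13 m4 384
    [m5, m3, m1, s0, s1, s2, s3, s10, s11, s12, s18] = true := by
  decide +kernel

theorem e6 : mrg s13 m4 384 = m6 := by
  decide +kernel

theorem ok11 : stepOk s0 s1 341
    [m10, m9, m7, m5, m3, m1] = true := by
  decide +kernel

theorem e11 : mrg s0 s1 341 = m11 := by
  decide +kernel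

theorem ok13 : stepOk m1 m7 35
    [m12, m11, m10, m9] = true := by
  decide +kernel

theorem e13 : mrg m1 m7 35 = m13 := by
  decide +kernel


end Vale.Agent.P333.H984.Tf
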