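import Vale.Agent.P333.H984.Tf.Str

set_option autoImplicit false

/-!
P333: checks of steps of the greedy algorithm.
-/

namespace Vale.Agent.P333.H984.Tf

open Vale.Agent.P333.H984.Num

theorem ok3 : stepOk s6 s7 435
    [m2, m1, s0, s1, s2, s3, s4, s5, s10, s11, s12, s13, s14, s18] = true := by
  decide +kernel

theorem e3 : mrg s6 s7 435 = m3 := by
  decide +kernel

theorem ok7 : stepOk s2 s3 382
    [m6, m5, m3, m1, s0, s1, s10, s11, s12, s18] = true := by
  decide +kernel

theorem e7 : mrg s2 s3 382 = m7 := by
  decide +kernel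

theorem ok9 : stepOk s10 s11 346
    [m8, m7, m5, m3, m1, s0, s1, s12] = true := by
  decide +kernel

theorem e9 : mrg s10 s11 346 = m9 := by
  decide +kernel

theorem ok14 : stepOk m9 m13 16
    [m12, m11, m10] = true := by
  decide +kernel

theorem e14 : mrg m9 m13 16 = m14 := by
  decide +kernel

theorem ok15 : stepOk m14 m11 6
    [m12, m10] = true := by
  decide +kernel

theorem e15 : mrg m14 m11 6 = m15 := by
  decide +kernel


end Vale.Agent.P333.H984.Tf
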