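import Vale.Agent.P333.H984.Tf.Str

set_option autoImplicit false

/-!
P333: checks of steps of the greedy algorithm.
-/

namespace Vale.Agent.P333.H984.Tf

open Vale.Agent.P333.H984.Num

theorem ok0 : stepOk s16 s17 475
    [s0, s1, s2, s3, s4, s5, s6, s7, s8, s9, s10, s11, s12, s13, s14, s15, s18] = true := by
  decide +kernel

theorem e0 : mrg s16 s17 475 = m0 := by
  decide +kernel

theorem ok5 : stepOk s4 s5 395
    [m4, m3, m1, s0, s1, s2, s3, s10, s11, s12, s13, s18] = true := by
  decide +kernel

theorem e5 : mrg s4 s5 395 = m5 := by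
  decide +kernel

theorem ok8 : stepOk m6 s18 348
    [m7, m5, m3, m1, s0, s1, s10, s11, s12] = true := by
  decide +kernel

theorem e8 : mrg m6 s18 348 = m8 := by
  decide +kernel

theorem ok10 : stepOk s12 m8 343
    [m9, m7, m5, m3, m1, s0, s1] = true := by
  decide +kernel

theorem e10 : mrg s12 m8 343 = m10 := by
  decide +kernel

theorem ok12 : stepOk m3 m5 82
    [m11, m10, m9, m7, m1] = true := by
  decide +kernel

theorem e12 : mrg m3 m5 82 = m12 := by
  decide +kernel


end Vale.Agent.P333.H984.Tf
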